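import Mathlib
import Vale.Agent.P150.Defs
import Vale.Agent.P150.Main

namespace Vale.Agent.Results.P150.GapOverlap

open Vale.Agent.P150

/-- The Sherrington-Kirkpatrick couplings `β g_ij / √n` for a disorder matrix `g`. -/
noncomputable def skCoupling {n : ℕ} (β : ℝ) (g : Fin n → Fin n → ℝ) : Fin n → Fin n → ℝ :=
  fun i j => β / Real.sqrt n * g i j

/-- For every `n`, `β` and every realisation `g` of the disorder, the spectral gap of heat-bath
Glauber dynamics satisfies `gap * Var_μ(∑ u_i x_i) ≤ ∑ u_i^2` for all `u`, and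
`gap * n * E_{μ⊗μ}[R_{12}^2] ≤ 1`. -/
theorem result (n : ℕ) (β : ℝ) (g : Fin n → Fin n → ℝ) :
    (∀ u : Fin n → ℝ,
      gap (skCoupling β g) * variance (skCoupling β g) (fun x => ∑ i, u i * spin (x i)) ≤
        ∑ i, u i ^ 2) ∧
    gap (skCoupling β g) * (n * overlapSq (skCoupling β g)) ≤ 1 :=
  ⟨fun u => gap_mul_variance_lin_le (skCoupling β g) u, gap_mul_overlapSq_le (skCoupling β g)⟩

end Vale.Agent.Results.P150.GapOverlap
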